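import Mathlib.Analysis.LocallyConvex.Separation
import Mathlib.Analysis.Convex.Topology
import Mathlib.Analysis.Normed.Module.Convex
import Mathlib.Topology.Algebra.Module.FiniteDimension
import Mathlib.Algebra.BigOperators.Finprod

/-! # Finite minimax theorem (dual form of an embedding law) -/

namespace Vale.Agent.P235.H104

/-- If for every nonnegative weight `D` some `N i` is at least as good as `b` on average, then some
convex combination of the `N i` is pointwise at least `b`. -/
theorem minimax {ι X : Type*} [Finite ι] [Finite X] (N : ι → X → ℝ) (b : X → ℝ)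
    (h : ∀ D : X → ℝ, (∀ x, 0 ≤ D x) → ∃ i, ∑ᶠ x, D x * b x ≤ ∑ᶠ x, D x * N i x) :
    ∃ p : ι → ℝ, (∀ i, 0 ≤ p i) ∧ ∑ᶠ i, p i = 1 ∧ ∀ x, b x ≤ ∑ᶠ i, p i * N i x := by
  classical
  cases nonempty_fintype ι
  cases nonempty_fintype X
  simp only [finsum_eq_sum_of_fintype] at h ⊢
  set K : Set (X → ℝ) := convexHull ℝ (Set.range N) with hK
  set U : Set (X → ℝ) := {w | ∀ x, b x ≤ w x} with hU
  by_cases hd : (K ∩ U).Nonempty
  · obtain ⟨w, hwK, hwU⟩ := hd
    have hcv : Convex ℝ {w : X → ℝ | ∃ p : ι → ℝ, (∀ i, 0 ≤ p i) ∧ ∑ i, p i = 1 ∧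
        ∀ x, w x = ∑ i, p i * N i x} := by
      rintro v ⟨p, hp0, hp1, hp⟩ v' ⟨q, hq0, hq1, hq⟩ s t hs ht hst
      refine ⟨fun i => s * p i + t * q i, fun i => ?_, ?_, fun x => ?_⟩
      · have h1 := mul_nonneg hs (hp0 i)
        have h2 := mul_nonneg ht (hq0 i)
        exact add_nonneg h1 h2
      · rw [Finset.sum_add_distrib, ← Finset.mul_sum, ← Finset.mul_sum, hp1, hq1, mul_one, mul_one,
          hst]
      · simp only [Pi.add_apply, Pi.smul_apply, smul_eq_mul]
        rw [hp, hq, Finset.mul_sum, Finset.mul_sum, ← Finset.sum_add_distrib]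
        exact Finset.sum_congr rfl fun i _ => by ring
    have hsub : Set.range N ⊆ {w : X → ℝ | ∃ p : ι → ℝ, (∀ i, 0 ≤ p i) ∧ ∑ i, p i = 1 ∧
        ∀ x, w x = ∑ i, p i * N i x} := by
      rintro _ ⟨i, rfl⟩
      refine ⟨fun j => if j = i then 1 else 0, fun j => ?_, by simp, fun x => by simp⟩
      dsimp only
      split_ifs <;> norm_num
    obtain ⟨p, hp0, hp1, hp⟩ := convexHull_min hsub hcv hwK
    exact ⟨p, hp0, hp1, fun x => (hp x) ▸ hwU x⟩
  · exfalso
    have hdis : Disjoint K U := Set.disjoint_iff_inter_eq_empty.2 (Set.not_nonempty_iff_eq_empty.1 hd)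
    have hKc : IsCompact K := (Set.finite_range N).isCompact_convexHull ℝ
    have hKv : Convex ℝ K := convex_convexHull ℝ _
    have hUv : Convex ℝ U := by
      intro v hv w hw s t hs ht hst x
      have h1 := mul_le_mul_of_nonneg_left (hv x) hs
      have h2 := mul_le_mul_of_nonneg_left (hw x) ht
      have h3 : b x = s * b x + t * b x := by rw [← add_mul, hst, one_mul]
      simp only [Pi.add_apply, Pi.smul_apply, smul_eq_mul]
      linarith
    have hUc : IsClosed U := by
      have : U = ⋂ x, {w : X → ℝ | b x ≤ w x} := by ext w; simp [hU]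
      rw [this]
      exact isClosed_iInter fun x => isClosed_le continuous_const (continuous_apply x)
    obtain ⟨f, s, t, hfs, hst, hft⟩ := geometric_hahn_banach_compact_closed hKv hKc hUv hUc hdis
    have hf : ∀ w : X → ℝ, f w = ∑ x, f (Pi.single x 1) * w x := by
      intro w
      conv_lhs => rw [← Finset.univ_sum_single w]
      rw [map_sum]
      refine Finset.sum_congr rfl fun x _ => ?_
      have : (Pi.single x (w x) : X → ℝ) = w x • Pi.single x 1 := by
        rw [← Pi.single_smul]; simp
      rw [this, map_smul, smul_eq_mul, mul_comm]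
    have hb : b ∈ U := fun x => le_rfl
    have hD : ∀ x, 0 ≤ f (Pi.single x 1) := by
      intro x
      by_contra hneg
      push Not at hneg
      set M : ℝ := (f b - t) / (- f (Pi.single x 1)) with hM
      have hfb := hft b hb
      have hM0 : 0 ≤ M := div_nonneg (by linarith) (by linarith)
      have hmem : b + M • Pi.single x 1 ∈ U := by
        intro y
        simp only [Pi.add_apply, Pi.smul_apply, smul_eq_mul]
        by_cases hxy : y = x
        · subst hxy; simp; exact hM0
        · simp [Pi.single_eq_of_ne hxy]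
      have := hft _ hmem
      rw [map_add, map_smul, smul_eq_mul] at this
      have h5 : M * f (Pi.single x 1) = - (f b - t) := by
        rw [hM, div_neg, neg_mul, div_mul_cancel₀ _ hneg.ne]
      linarith
    obtain ⟨i, hi⟩ := h (fun x => f (Pi.single x 1)) hD
    have h1 := hfs (N i) (subset_convexHull ℝ _ (Set.mem_range_self i))
    have h2 := hft b hb
    rw [hf] at h1 h2
    linarith

end Vale.Agent.P235.H104
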