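import Vale.Agent.P235.R2.AP.Defs
import Vale.Agent.P235.R2.H104.MM

/-! # Dual (minimax) form of the law on configurations -/

namespace Vale.Agent.P235.H104

open Vale.Agent.P235 Vale.Agent.P235.AP

variable {V : Type} {G : SimpleGraph V}

instance finUp [Finite V] (u : V → ℤ) : Finite (Up G u) := by
  classical
  cases nonempty_fintype V
  have : Finite G.Dart := inferInstance
  exact Subtype.finite

/-- If for every nonnegative weight `D` on the pairs there is one configuration whose weighted norm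
is at least `c` times the weighted distance, then there is a law on the configurations whose mean
norm is at least `c` times the distance. -/
theorem exists_law [Finite V] (σ : Equiv.Perm G.Dart) (u : V → ℤ) (c : ℝ)
    (h : ∀ D : V → V → ℝ, (∀ x y, 0 ≤ D x y) → ∃ π : Equiv.Perm (Up G u), Conf σ u π ∧
      c * ∑ᶠ x, ∑ᶠ y, D x y * G.dist x y ≤ ∑ᶠ x, ∑ᶠ y, D x y * NN π x y) :
    ∃ (ι : Type) (_ : Finite ι) (p : ι → ℝ) (π : ι → Equiv.Perm (Up G u)),
      (∀ i, 0 ≤ p i) ∧ ∑ᶠ i, p i = 1 ∧ (∀ i, Conf σ u (π i)) ∧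
      ∀ x y, c * G.dist x y ≤ ∑ᶠ i, p i * NN (π i) x y := by
  classical
  cases nonempty_fintype V
  have : Finite (Equiv.Perm (Up G u)) := inferInstance
  obtain ⟨p, hp0, hp1, hp⟩ := minimax
    (fun (π : {π : Equiv.Perm (Up G u) // Conf σ u π}) (z : V × V) => NN π.1 z.1 z.2)
    (fun z => c * G.dist z.1 z.2) (by
      intro D hD
      obtain ⟨π, hπ, hle⟩ := h (fun x y => D (x, y)) (fun x y => hD (x, y))
      refine ⟨⟨π, hπ⟩, ?_⟩
      simp only [finsum_eq_sum_of_fintype, Fintype.sum_prod_type] at hle ⊢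
      refine le_trans (le_of_eq ?_) hle
      rw [Finset.mul_sum]
      refine Finset.sum_congr rfl fun x _ => ?_
      rw [Finset.mul_sum]
      exact Finset.sum_congr rfl fun y _ => by ring)
  exact ⟨_, Subtype.finite, p, fun π => π.1, hp0, hp1, fun i => i.2, fun x y => hp (x, y)⟩

end Vale.Agent.P235.H104
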